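import Mathlib
import Vale.Agent.P105.Defs
import Vale.Agent.P105.Exist

set_option autoImplicit false

/-!
# P105: Bernoulli convolutions of degree-four Salem numbers are singular

The statement `singular only if Pisot` is false: for every Salem number `b` of degree four the
Bernoulli convolution with parameter `1/b` is singular, and there is such a `b` in `(1, 2)`.
-/

namespace Vale.Agent.Results.P105.SalemSingular

open Vale.P105 MeasureTheory

theorem result :
    (∀ b : ℝ, IsSalem b → (minpoly ℚ b).natDegree = 4 →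
      (bernoulliConv b⁻¹).MutuallySingular volume) ∧
    ∃ l : ℝ, 1 / 2 < l ∧ l < 1 ∧ ¬ IsPisot l⁻¹ ∧ IsSalem l⁻¹ ∧
      (l⁻¹) ^ 4 - (l⁻¹) ^ 3 - (l⁻¹) ^ 2 - l⁻¹ + 1 = 0 ∧
      IsProbabilityMeasure (bernoulliConv l) ∧
      (bernoulliConv l).MutuallySingular volume := by
  refine ⟨fun b hb hd => singular_of_salem4 hb hd, ?_⟩
  obtain ⟨b, h1, h2, hS, hP, hd, hq⟩ := exists_salem4
  have hb0 : 0 < b := by linarith
  have hl1 : b⁻¹ < 1 := inv_lt_one_of_one_lt₀ h1
  refine ⟨b⁻¹, ?_, hl1, ?_, ?_, ?_, isProb (by positivity) hl1, singular_of_salem4 hS hd⟩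
  · rw [one_div]
    exact inv_strictAnti₀ hb0 h2
  · rw [inv_inv]; exact hP
  · rw [inv_inv]; exact hS
  · rw [inv_inv]; exact hq

end Vale.Agent.Results.P105.SalemSingular
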